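import Vale.Agent.P084.Plane2

open Metric Module

namespace Vale.Agent.Results.P084.AllFiniteDimensional

open Vale.Agent.P084

/-- Every finite-dimensional real normed space has the Mazur-Ulam property: each surjective
isometry from its unit sphere onto the unit sphere of any real normed space is the restriction of
a surjective linear isometry. -/
theorem result {X : Type*} [NormedAddCommGroup X] [NormedSpace ℝ X] [FiniteDimensional ℝ X]
    {Y : Type*} [NormedAddCommGroup Y] [NormedSpace ℝ Y]
    (f : sphere (0 : X) 1 → sphere (0 : Y) 1) (hf : Isometry f) (hs : Function.Surjective f) :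
    ∃ T : X ≃ₗᵢ[ℝ] Y, ∀ x : sphere (0 : X) 1, T (x : X) = f x := by
  obtain ⟨S, hS⟩ := exists_sphMap_of_finiteDimensional f hf hs
  have : FiniteDimensional ℝ Y := S.finiteDimensional
  obtain ⟨T, hT⟩ := S.lin_finiteDimensional
  let T' : X →ₗ[ℝ] Y := T
  have hT' : ∀ x, T' x = S.F x := fun x => (hT x).symm
  let Li : X →ₗᵢ[ℝ] Y := ⟨T', fun x => by rw [hT', S.norm_map]⟩
  have hsurj : Function.Surjective Li := by
    intro y
    obtain ⟨x, hx⟩ := S.surjective y
    exact ⟨x, by rw [← hx]; exact hT' x⟩
  refine ⟨LinearIsometryEquiv.ofSurjective Li hsurj, fun x => ?_⟩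
  rw [← hS x, ← hT' x]
  rfl

end Vale.Agent.Results.P084.AllFiniteDimensional
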